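import Vale.Agent.P252.R.Spec
import Vale.Agent.P252.H747.Sections
import Vale.Agent.P252.H474.Trans
import Vale.Agent.P252.H392.Geo

/-!
# Common tools for the cell estimates (part F)

* `Lam_ge`: lower bound of `Lam` from a point of the epigraph.
* `box_of_nu`: on `{ν ≤ t}` all arm coordinates are bounded.
* `isCompact_nu`: `{x ∈ Ω | ν ≤ t}` is compact.
* continuity of all the integrands.
-/

open scoped ContDiff Topology
open Filter MeasureTheory

namespace Vale.Agent.P252.H693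

open Vale.Agent.P252.R

variable {n k : ℕ} {Ω : Set (En n)} {u : En n → ℝ}

lemma Lam_eq (u : En n → ℝ) (X : En n) (zX : ℝ) (x : En n) :
    Lam u X zX x = zX - (u x + fderiv ℝ u x (X - x)) := by
  rw [fderiv_apply_eq_sum_pd]
  unfold Lam
  have : ∑ i, pd i u x * (X i - x i) = ∑ i, (X - x) i * pd i u x :=
    Finset.sum_congr rfl fun i _ => by simp [mul_comm]
  rw [this]; ring

/-- If `(X, z)` is in the epigraph then `Lam u X zX ≥ zX - z`. -/
lemma Lam_ge (h : SC Ω u) (hc : Convex ℝ Ω) {X : En n} {z : ℝ} (hX : (X, z) ∈ epi Ω u) (zX : ℝ)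
    {x : En n} (hx : x ∈ Ω) : zX - z ≤ Lam u X zX x := by
  rw [Lam_eq]
  have := tangent_le h.op hc h.sm h.pos hx hX.1
  have h2 : u X ≤ z := hX.2
  linarith

lemma convex_epi (h : SC Ω u) (hc : Convex ℝ Ω) : Convex ℝ (epi Ω u) :=
  (strictConvexOn_of_hess h.op hc h.sm h.pos).convexOn.convex_epigraph

lemma continuousOn_u (h : SC Ω u) : ContinuousOn u Ω := h.sm.continuousOn

lemma sm' (h : SC Ω u) {x : En n} (hx : x ∈ Ω) : C.Sm u x := h.contDiffAt hx

lemma det_ne (h : SC Ω u) {x : En n} (hx : x ∈ Ω) : (hess u x).det ≠ 0 := (h.dt_pos hx).ne'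

lemma continuousOn_pd (h : SC Ω u) (i : Fin n) : ContinuousOn (pd i u) Ω := fun _ hx =>
  ((sm' h hx).pd i).continuousAt.continuousWithinAt

lemma continuousOn_dt (h : SC Ω u) : ContinuousOn (dt u) Ω := fun _ hx =>
  (C.sm_hess_det (sm' h hx)).continuousAt.continuousWithinAt

lemma continuousOn_inv (h : SC Ω u) (i j : Fin n) :
    ContinuousOn (fun x => (hess u x)⁻¹ i j) Ω := fun _ hx =>
  (C.sm_uinv (sm' h hx) (det_ne h hx) i j).continuousAt.continuousWithinAt

lemma continuousOn_coord (i : Fin n) : ContinuousOn (fun x : En n => x i) Ω := by fun_prop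

lemma continuousOn_Lam (h : SC Ω u) (X : En n) (zX : ℝ) : ContinuousOn (Lam u X zX) Ω := by
  unfold Lam
  refine (continuousOn_const.sub (continuousOn_u h)).sub ?_
  exact continuousOn_finsetSum _ fun i _ => (continuousOn_pd h i).mul
    (continuousOn_const.sub (continuousOn_coord i))

lemma continuousOn_nu (h : SC Ω u) (α : Fin n → ℝ) (β γ : ℝ) : ContinuousOn (nu u α β γ) Ω := by
  unfold nu
  refine (ContinuousOn.add ?_ (continuousOn_const.mul (continuousOn_u h))).add continuousOn_const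
  exact continuousOn_finsetSum _ fun i _ => continuousOn_const.mul (continuousOn_coord i)

lemma gr_nu (h : SC Ω u) (α : Fin n → ℝ) (β γ : ℝ) {x : En n} (hx : x ∈ Ω) :
    gr (nu u α β γ) x = α + β • gr u x := by
  have hu : DifferentiableAt ℝ u x := h.diffAt hx
  have hlin : DifferentiableAt ℝ (fun y : En n => ∑ i, α i * y i) x := by fun_prop
  funext j
  have h1 : nu u α β γ = fun y => ((∑ i, α i * y i) + β * u y) + γ := rfl
  have h2 : pd j (fun y : En n => ∑ i, α i * y i) x = α j := by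
    have : (fun y : En n => ∑ i, α i * y i) = fun y => cl α y := by
      funext y; rw [cl_apply]
    rw [this]
    unfold pd
    have : fderiv ℝ (fun y => cl α y) x = cl α := (cl α).fderiv
    rw [this, cl_single]
  simp only [gr, Pi.add_apply, Pi.smul_apply, smul_eq_mul]
  rw [h1, C.pd_add j (hlin.fun_add (hu.const_mul β)) (differentiableAt_const γ),
    C.pd_add j hlin (hu.const_mul β), h2, C.pd_const_mul j β hu, C.pd_const]
  ring

lemma ip_eq_C (u : En n → ℝ) (x : En n) (a b : Fin n → ℝ) : ip u x a b = C.ip u x a b := rfl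

lemma ip_nonneg (h : SC Ω u) {x : En n} (hx : x ∈ Ω) (a : Fin n → ℝ) : 0 ≤ ip u x a a :=
  C.ip_self_nonneg (h.pos x hx) a

lemma continuousOn_ip_nu (h : SC Ω u) (α : Fin n → ℝ) (β γ : ℝ) :
    ContinuousOn (fun x => ip u x (gr (nu u α β γ) x) (gr (nu u α β γ) x)) Ω := by
  have h1 : ContinuousOn (fun x => ∑ i, ∑ j, (hess u x)⁻¹ i j * (α i + β * pd i u x) *
      (α j + β * pd j u x)) Ω := by
    refine continuousOn_finsetSum _ fun i _ => continuousOn_finsetSum _ fun j _ => ?_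
    exact ((continuousOn_inv h i j).mul (continuousOn_const.add
      (continuousOn_const.mul (continuousOn_pd h i)))).mul (continuousOn_const.add
      (continuousOn_const.mul (continuousOn_pd h j)))
  refine h1.congr fun x hx => ?_
  simp only [ip, gr_nu h α β γ hx, Pi.add_apply, Pi.smul_apply, smul_eq_mul]
  rfl

/-- The conclusion of `Stmt_approxBox`. -/
def BoxAt (k : ℕ) (Ω : Set (En n)) (u : En n → ℝ) (T e : ℝ) : Prop :=
  ∀ p ∈ epi Ω u, p.2 ≤ T → (∀ i : Fin n, i.val < k → p.1 i ≤ T) →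
      -e ≤ p.2 ∧ (∀ i : Fin n, i.val < k → -e ≤ p.1 i) ∧
      ∀ j : Fin n, k ≤ j.val → |p.1 j| ≤ T + 1

/-- Admissible coefficients of `ν = ∑_{i<k} α_i x_i + β z`. -/
structure NuC (n k : ℕ) (A : ℝ) (α : Fin n → ℝ) (β : ℝ) : Prop where
  one_le : ∀ i : Fin n, i.val < k → 1 ≤ α i
  le : ∀ i : Fin n, i.val < k → α i ≤ A
  zero : ∀ j : Fin n, k ≤ j.val → α j = 0
  one_le_β : 1 ≤ β
  le_β : β ≤ A

lemma NuC.one_le_A {A : ℝ} {α : Fin n → ℝ} {β : ℝ} (h : NuC n k A α β) : 1 ≤ A :=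
  h.one_le_β.trans h.le_β

lemma ones_apply_lt {i : Fin n} (h : i.val < k) : ones n k i = 1 := by simp [ones, h]

lemma ones_apply_ge {i : Fin n} (h : k ≤ i.val) : ones n k i = 0 := by
  simp [ones, not_lt.2 h]

lemma NuC.term_ge {A : ℝ} {α : Fin n → ℝ} {β : ℝ} (h : NuC n k A α β) {e : ℝ} (he : 0 ≤ e)
    {y : En n} (hy : ∀ i : Fin n, i.val < k → -e ≤ y i) (i : Fin n) : -(A * e) ≤ α i * y i := by
  have hA := h.one_le_A
  by_cases hi : i.val < k
  · have h1 := h.one_le i hi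
    have h2 := h.le i hi
    nlinarith [hy i hi, mul_le_mul_of_nonneg_right h2 he, mul_nonneg (by linarith : 0 ≤ α i)
      (by linarith [hy i hi] : 0 ≤ y i + e)]
  · rw [h.zero i (not_lt.1 hi)]
    nlinarith [mul_nonneg (by linarith : 0 ≤ A) he]

lemma NuC.sum_ge {A : ℝ} {α : Fin n → ℝ} {β : ℝ} (h : NuC n k A α β) {e : ℝ} (he : 0 ≤ e)
    {y : En n} (hy : ∀ i : Fin n, i.val < k → -e ≤ y i) : -(n * (A * e)) ≤ ∑ i, α i * y i := by
  have h1 : ∑ _i : Fin n, -(A * e) ≤ ∑ i, α i * y i :=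
    Finset.sum_le_sum fun i _ => h.term_ge he hy i
  simpa using h1

lemma NuC.sum_ge' {A : ℝ} {α : Fin n → ℝ} {β : ℝ} (h : NuC n k A α β) {e : ℝ} (he : 0 ≤ e)
    {y : En n} (hy : ∀ i : Fin n, i.val < k → -e ≤ y i) (i₀ : Fin n) :
    α i₀ * y i₀ + A * e - n * (A * e) ≤ ∑ i, α i * y i := by
  have h1 : α i₀ * y i₀ + A * e ≤ ∑ i, (α i * y i + A * e) :=
    Finset.single_le_sum (f := fun i => α i * y i + A * e)
      (fun i _ => by linarith [h.term_ge he hy i]) (Finset.mem_univ i₀)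
  rw [Finset.sum_add_distrib] at h1
  simp only [Finset.sum_const, Finset.card_univ, Fintype.card_fin, nsmul_eq_mul] at h1
  linarith

lemma NuC.sum_ones_le {A : ℝ} {α : Fin n → ℝ} {β : ℝ} (h : NuC n k A α β) :
    ∑ i, α i * ones n k i ≤ n * A := by
  have hA := h.one_le_A
  have h1 : ∑ i, α i * ones n k i ≤ ∑ _i : Fin n, A := by
    refine Finset.sum_le_sum fun i _ => ?_
    by_cases hi : i.val < k
    · rw [ones_apply_lt hi, mul_one]; exact h.le i hi
    · rw [ones_apply_ge (not_lt.1 hi), mul_zero]; linarith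
  simpa using h1

/-- On `{ν ≤ t}` all the arm coordinates are `≤ T`. -/
lemma arms_le (h : SC Ω u) (hc : Convex ℝ Ω) (hone : (ones n k, (1 : ℝ)) ∈ epi Ω u)
    {T e A t : ℝ} (he : 0 ≤ e) (hB : BoxAt k Ω u T e) {α : Fin n → ℝ} {β : ℝ}
    (hν : NuC n k A α β) (ht : A * (n + 1) ≤ t) (hT : t + A * e * (n + 1) < T)
    {p : En n × ℝ} (hp : p ∈ epi Ω u) (hpt : ∑ i, α i * p.1 i + β * p.2 ≤ t) :
    p.2 ≤ T ∧ ∀ i : Fin n, i.val < k → p.1 i ≤ T := by
  have hA := hν.one_le_A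
  set a : Option (Fin n) → ℝ :=
    fun o => o.elim p.2 (fun i => if i.val < k then p.1 i else p.2) with ha
  obtain ⟨o, ho⟩ := Finite.exists_max a
  have hz : p.2 ≤ a o := ho none
  have hi : ∀ i : Fin n, i.val < k → p.1 i ≤ a o := by
    intro i hik
    have := ho (some i)
    simpa [ha, hik] using this
  by_cases hm : a o ≤ T
  · exact ⟨hz.trans hm, fun i hik => (hi i hik).trans hm⟩
  exfalso
  push Not at hm
  have hAe : 0 ≤ A * e * (n + 1) := by positivity
  have hn0 : (0 : ℝ) ≤ n := Nat.cast_nonneg n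
  have hT1 : 1 < T := by nlinarith
  set m := a o with hmdef
  have hm1 : 0 < m - 1 := by linarith
  set s := (T - 1) / (m - 1) with hs
  have hs0 : 0 < s := div_pos (by linarith) hm1
  have hs1 : s < 1 := by rw [hs, div_lt_one hm1]; linarith
  have hsm : s * (m - 1) = T - 1 := by rw [hs]; field_simp
  have hq := (convex_epi h hc) hone hp (by linarith : (0 : ℝ) ≤ 1 - s) hs0.le (by ring)
  set q : En n × ℝ := (1 - s) • (ones n k, (1 : ℝ)) + s • p with hqdef
  have hq2 : q.2 = 1 + s * (p.2 - 1) := by simp [hqdef]; ring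
  have hq1 : ∀ i : Fin n, i.val < k → q.1 i = 1 + s * (p.1 i - 1) := by
    intro i hik
    simp [hqdef, ones_apply_lt hik]; ring
  have hle : ∀ v : ℝ, v ≤ m → 1 + s * (v - 1) ≤ T := by
    intro v hv
    have : s * (v - 1) ≤ s * (m - 1) := mul_le_mul_of_nonneg_left (by linarith) hs0.le
    linarith
  obtain ⟨b1, b2, -⟩ := hB q hq (by rw [hq2]; exact hle _ hz)
    (fun i hik => by rw [hq1 i hik]; exact hle _ (hi i hik))
  -- `ν(q) ≤ t`
  have hνq : ∑ i, α i * q.1 i + β * q.2 ≤ t := by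
    have e1 : ∑ i, α i * q.1 i + β * q.2 =
        (1 - s) * (∑ i, α i * ones n k i + β) + s * (∑ i, α i * p.1 i + β * p.2) := by
      have : ∀ i, α i * q.1 i = (1 - s) * (α i * ones n k i) + s * (α i * p.1 i) := by
        intro i; simp [hqdef]; ring
      simp only [this, Finset.sum_add_distrib, ← Finset.mul_sum]
      simp [hqdef]; ring
    rw [e1]
    have e2 : ∑ i, α i * ones n k i + β ≤ t := by
      have := hν.sum_ones_le
      have := hν.le_β
      nlinarith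
    nlinarith
  -- the maximal arm
  have key : ∀ i₀ : Fin n, i₀.val < k → p.1 i₀ = m → False := by
    intro i₀ hik hpm
    have c1 : q.1 i₀ = T := by rw [hq1 i₀ hik, hpm]; linarith
    have c2 := hν.sum_ge' he b2 i₀
    have c3 : T ≤ α i₀ * q.1 i₀ := by
      rw [c1]; nlinarith [hν.one_le i₀ hik]
    have c4 : -(A * e) ≤ β * q.2 := by
      nlinarith [hν.one_le_β, hν.le_β, mul_nonneg (by linarith [hν.one_le_β] : 0 ≤ β)
        (by linarith : 0 ≤ q.2 + e), mul_le_mul_of_nonneg_right hν.le_β he]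
    nlinarith
  have key2 : p.2 = m → False := by
    intro hpm
    have c1 : q.2 = T := by rw [hq2, hpm]; linarith
    have c2 := hν.sum_ge he b2
    have c3 : T ≤ β * q.2 := by rw [c1]; nlinarith [hν.one_le_β]
    nlinarith
  rcases o with _ | i₀
  · exact key2 rfl
  · by_cases hik : i₀.val < k
    · exact key i₀ hik (by rw [hmdef, ha]; simp [hik])
    · exact key2 (by rw [hmdef, ha]; simp [hik])

/-- Bounds on `{ν ≤ t}`. -/
lemma box_of_nu (h : SC Ω u) (hc : Convex ℝ Ω) (hone : (ones n k, (1 : ℝ)) ∈ epi Ω u)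
    {T e A t : ℝ} (he : 0 ≤ e) (hB : BoxAt k Ω u T e) {α : Fin n → ℝ} {β : ℝ}
    (hν : NuC n k A α β) (ht : A * (n + 1) ≤ t) (hT : t + A * e * (n + 1) < T)
    {x : En n} (hx : x ∈ Ω) (hxt : nu u α β 0 x ≤ t) :
    (-e ≤ u x ∧ u x ≤ T) ∧ (∀ i : Fin n, i.val < k → -e ≤ x i ∧ x i ≤ T) ∧
      ∀ j : Fin n, k ≤ j.val → |x j| ≤ T + 1 := by
  have hp : ((x, u x) : En n × ℝ) ∈ epi Ω u := ⟨hx, le_rfl⟩
  have hpt : ∑ i, α i * x i + β * u x ≤ t := by simpa [nu] using hxt
  obtain ⟨h1, h2⟩ := arms_le h hc hone he hB hν ht hT hp hpt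
  obtain ⟨h3, h4, h5⟩ := hB _ hp h1 h2
  exact ⟨⟨h3, h1⟩, fun i hik => ⟨h4 i hik, h2 i hik⟩, h5⟩

lemma abs_le_of_nu (h : SC Ω u) (hc : Convex ℝ Ω) (hone : (ones n k, (1 : ℝ)) ∈ epi Ω u)
    {T e A t : ℝ} (he : 0 ≤ e) (he1 : e ≤ 1) (hB : BoxAt k Ω u T e) {α : Fin n → ℝ} {β : ℝ}
    (hν : NuC n k A α β) (ht : A * (n + 1) ≤ t) (hT : t + A * e * (n + 1) < T)
    {x : En n} (hx : x ∈ Ω) (hxt : nu u α β 0 x ≤ t) (i : Fin n) : |x i| ≤ T + 1 := by
  obtain ⟨_, h2, h3⟩ := box_of_nu h hc hone he hB hν ht hT hx hxt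
  by_cases hi : i.val < k
  · obtain ⟨a1, a2⟩ := h2 i hi
    have hA := hν.one_le_A
    have : 0 ≤ A * e * (n + 1) := by positivity
    have hT0 : 0 ≤ T := by
      have : 0 ≤ A * (n + 1) := by positivity
      linarith
    rw [abs_le]; constructor <;> linarith
  · exact h3 i (not_lt.1 hi)

lemma norm_le_of_abs_le {x : En n} {M : ℝ} (h : ∀ i, |x i| ≤ M) :
    ‖x‖ ≤ n * M := by
  have h1 : x = ∑ i, x i • EuclideanSpace.single i (1 : ℝ) := by
    ext j; simp [Finset.sum_apply, Pi.single_apply]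
  rw [h1]
  refine (norm_sum_le _ _).trans ?_
  have : ∑ i, ‖x i • EuclideanSpace.single i (1 : ℝ)‖ ≤ ∑ _i : Fin n, M := by
    refine Finset.sum_le_sum fun i _ => ?_
    rw [norm_smul]; simpa using h i
  simpa using this

lemma subset_closedBall_of_nu (h : SC Ω u) (hc : Convex ℝ Ω)
    (hone : (ones n k, (1 : ℝ)) ∈ epi Ω u)
    {T e A t : ℝ} (he : 0 ≤ e) (he1 : e ≤ 1) (hB : BoxAt k Ω u T e) {α : Fin n → ℝ} {β : ℝ}
    (hν : NuC n k A α β) (ht : A * (n + 1) ≤ t) (hT : t + A * e * (n + 1) < T) :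
    {x | x ∈ Ω ∧ nu u α β 0 x ≤ t} ⊆ Metric.closedBall (0 : En n) (n * (T + 1)) := by
  intro x hx
  rw [mem_closedBall_zero_iff]
  have hA := hν.one_le_A
  have h1 : 0 ≤ A * e * (n + 1) := by positivity
  have h2 : 0 ≤ A * (n + 1) := by positivity
  exact norm_le_of_abs_le fun i =>
    abs_le_of_nu h hc hone he he1 hB hν ht hT hx.1 hx.2 i

/-- Compactness of `{ν ≤ t}`. -/
lemma isCompact_nu (h : AMC Ω u) (hone : (ones n k, (1 : ℝ)) ∈ epi Ω u)
    {T e A t : ℝ} (he : 0 ≤ e) (he1 : e ≤ 1) (hB : BoxAt k Ω u T e) {α : Fin n → ℝ} {β : ℝ}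
    (hν : NuC n k A α β) (ht : A * (n + 1) ≤ t) (hT : t + A * e * (n + 1) < T) :
    IsCompact {x | x ∈ Ω ∧ nu u α β 0 x ≤ t} := by
  refine Metric.isCompact_of_isClosed_isBounded ?_
    (Metric.isBounded_closedBall.subset
      (subset_closedBall_of_nu h.toSC h.cv hone he he1 hB hν ht hT))
  have hβ : 0 < β := by linarith [hν.one_le_β]
  have : {x | x ∈ Ω ∧ nu u α β 0 x ≤ t} =
      (fun x : En n => ((x, (t - ∑ i, α i * x i) / β) : En n × ℝ)) ⁻¹' epi Ω u := by
    ext x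
    simp only [Set.mem_ofPred_eq, Set.mem_preimage, epi, nu, add_zero]
    refine and_congr_right fun _ => ?_
    rw [le_div_iff₀ hβ]
    constructor <;> intro h <;> linarith
  rw [this]
  exact h.cl.preimage (by fun_prop)

end Vale.Agent.P252.H693
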