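import Vale.Agent.P252.H693.Common

/-!
# The theta inequality turned into a uniform bound
-/

open scoped ContDiff Topology
open Filter MeasureTheory

namespace Vale.Agent.P252.H693

open Vale.Agent.P252.R

variable {n k : ℕ} {Ω : Set (En n)} {u : En n → ℝ}

lemma isOpen_nu_lt (h : SC Ω u) (α : Fin n → ℝ) (β γ t : ℝ) :
    IsOpen {x | x ∈ Ω ∧ nu u α β γ x < t} :=
  (continuousOn_nu h α β γ).isOpen_inter_preimage h.op isOpen_Iio

lemma nu_lt_subset (α : Fin n → ℝ) (β γ t : ℝ) :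
    {x | x ∈ Ω ∧ nu u α β γ x < t} ⊆ {x | x ∈ Ω ∧ nu u α β γ x ≤ t} :=
  fun _ hx => ⟨hx.1, hx.2.le⟩

/-- AM-GM form of the Cauchy-Schwarz step. -/
lemma amgm_step {D L s : ℝ} (hD : 0 < D) (hL : 0 < L) (n : ℕ) :
    Real.sqrt D * L ^ (-(n : ℝ) / 2) * s ^ 2 ≤
      (D * L ^ (-((n : ℝ) + 1)) + s ^ 4 * L) / 2 := by
  set a := Real.sqrt D * L ^ (-((n : ℝ) + 1) / 2) with ha
  set b := s ^ 2 * L ^ ((1 : ℝ) / 2) with hb
  have h1 : a * b = Real.sqrt D * L ^ (-(n : ℝ) / 2) * s ^ 2 := by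
    have : L ^ (-(n : ℝ) / 2) = L ^ (-((n : ℝ) + 1) / 2) * L ^ ((1 : ℝ) / 2) := by
      rw [← Real.rpow_add hL]; congr 1; ring
    rw [this, ha, hb]; ring
  have h2 : a ^ 2 = D * L ^ (-((n : ℝ) + 1)) := by
    rw [ha, mul_pow, Real.sq_sqrt hD.le, ← Real.rpow_natCast (L ^ _), ← Real.rpow_mul hL.le]
    congr 2; push_cast; ring
  have h3 : b ^ 2 = s ^ 4 * L := by
    rw [hb, mul_pow, ← Real.rpow_natCast (L ^ _), ← Real.rpow_mul hL.le]
    have : (1 : ℝ) / 2 * ((2 : ℕ) : ℝ) = 1 := by norm_num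
    rw [this, Real.rpow_one]; ring
  rw [← h1, ← h2, ← h3]
  nlinarith [sq_nonneg (a - b)]

lemma pt_bound (n : ℕ) {D L s T m : ℝ} (hD : 0 < D) (hL : 0 < L) (s0 : 0 ≤ s) (sT : s ≤ T)
    (hm : m ≤ 2 * n + 3) :
    Real.sqrt D * L ^ (-(n : ℝ) / 2) *
      ((n : ℝ) / 2 * s ^ 2 * m + (n : ℝ) * ((n : ℝ) + 2) / 12 * s ^ 3) ≤
      ((n : ℝ) / 2 * (2 * n + 3) + (n : ℝ) * ((n : ℝ) + 2) / 12 * T) / 2 *
        (D * L ^ (-((n : ℝ) + 1)) + T ^ 2 * (s ^ 2 * L)) := by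
  have hn0 : (0 : ℝ) ≤ n := Nat.cast_nonneg n
  have hT : 0 ≤ T := s0.trans sT
  set C1 : ℝ := (n : ℝ) / 2 * (2 * n + 3) + (n : ℝ) * ((n : ℝ) + 2) / 12 * T with hC1
  have hC10 : 0 ≤ C1 := by positivity
  have c1 : (n : ℝ) / 2 * s ^ 2 * m + (n : ℝ) * ((n : ℝ) + 2) / 12 * s ^ 3 ≤ C1 * s ^ 2 := by
    have d1 : (n : ℝ) / 2 * s ^ 2 * m ≤ (n : ℝ) / 2 * s ^ 2 * (2 * n + 3) :=
      mul_le_mul_of_nonneg_left hm (by positivity)
    have d2 : (n : ℝ) * ((n : ℝ) + 2) / 12 * s ^ 3 ≤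
        (n : ℝ) * ((n : ℝ) + 2) / 12 * (T * s ^ 2) := by
      apply mul_le_mul_of_nonneg_left _ (by positivity)
      calc s ^ 3 = s * s ^ 2 := by ring
        _ ≤ T * s ^ 2 := mul_le_mul_of_nonneg_right sT (sq_nonneg s)
    calc _ ≤ (n : ℝ) / 2 * s ^ 2 * (2 * n + 3) + (n : ℝ) * ((n : ℝ) + 2) / 12 * (T * s ^ 2) :=
          add_le_add d1 d2
      _ = C1 * s ^ 2 := by rw [hC1]; ring
  have c2 := amgm_step (s := s) hD hL n
  have c3 : 0 ≤ Real.sqrt D * L ^ (-(n : ℝ) / 2) :=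
    mul_nonneg (Real.sqrt_nonneg _) (Real.rpow_nonneg hL.le _)
  have c4 : s ^ 4 * L ≤ T ^ 2 * (s ^ 2 * L) := by
    have h1 : s ^ 2 ≤ T ^ 2 := pow_le_pow_left₀ s0 sT 2
    calc s ^ 4 * L = s ^ 2 * (s ^ 2 * L) := by ring
      _ ≤ _ := mul_le_mul_of_nonneg_right h1 (by positivity)
  calc _ ≤ Real.sqrt D * L ^ (-(n : ℝ) / 2) * (C1 * s ^ 2) :=
        mul_le_mul_of_nonneg_left c1 c3
    _ = C1 * (Real.sqrt D * L ^ (-(n : ℝ) / 2) * s ^ 2) := by ring
    _ ≤ C1 * ((D * L ^ (-((n : ℝ) + 1)) + s ^ 4 * L) / 2) :=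
        mul_le_mul_of_nonneg_left c2 hC10
    _ = C1 / 2 * (D * L ^ (-((n : ℝ) + 1)) + s ^ 4 * L) := by ring
    _ ≤ _ := mul_le_mul_of_nonneg_left (by linarith) (by positivity)

lemma setIntegral_le_const_mul {S : Set (En n)} {f : En n → ℝ} {c R : ℝ}
    (hS : S ⊆ Metric.closedBall (0 : En n) R) (hc : 0 ≤ c) (hf : ∀ x ∈ S, |f x| ≤ c) :
    |∫ x in S, f x| ≤ c * (volume.real (Metric.closedBall (0 : En n) R)) := by
  have hfin : volume (Metric.closedBall (0 : En n) R) < ⊤ := measure_closedBall_lt_top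
  have h1 : ‖∫ x in S, f x‖ ≤ c * volume.real S :=
    norm_setIntegral_le_of_norm_le_const ((measure_mono hS).trans_lt hfin)
      (fun x hx => by simpa using hf x hx)
  have h2 : volume.real S ≤ volume.real (Metric.closedBall (0 : En n) R) :=
    measureReal_mono hS hfin.ne
  calc |∫ x in S, f x| = ‖∫ x in S, f x‖ := rfl
    _ ≤ c * volume.real S := h1
    _ ≤ _ := mul_le_mul_of_nonneg_left h2 hc

/-- Integral of `D Lam^{-(n+1)}` from the lower integral bound. -/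
lemma integral_dLam_le {S : Set (En n)} {f : En n → ℝ} {G : ℝ} (hG : 0 ≤ G)
    (hm : MeasurableSet S) (hf0 : ∀ x ∈ S, 0 ≤ f x) (hfi : IntegrableOn f S)
    (h : ∫⁻ x in S, ENNReal.ofReal (f x) ≤ ENNReal.ofReal G) : ∫ x in S, f x ≤ G := by
  rw [integral_eq_lintegral_of_nonneg_ae ((ae_restrict_iff' hm).2 (ae_of_all _ hf0))
    hfi.aestronglyMeasurable]
  calc (∫⁻ x in S, ENNReal.ofReal (f x)).toReal ≤ (ENNReal.ofReal G).toReal :=
        ENNReal.toReal_mono ENNReal.ofReal_ne_top h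
    _ = G := ENNReal.toReal_ofReal hG

/-- Bound of `∫ (t-ν)² Lam`. -/
lemma lamInt_bound (hl : Stmt_lamInt n) (hsc : SC Ω u) {t T : ℝ} (hT0 : 0 ≤ T)
    {α : Fin n → ℝ} {β : ℝ} (hν : NuC n k 2 α β) (hK : IsCompact {x | x ∈ Ω ∧ nu u α β 0 x ≤ t})
    (hSball : {x | x ∈ Ω ∧ nu u α β 0 x < t} ⊆ Metric.closedBall (0 : En n) (n * (T + 1)))
    (hs : ∀ x ∈ {x | x ∈ Ω ∧ nu u α β 0 x < t}, 0 ≤ t - nu u α β 0 x ∧ t - nu u α β 0 x ≤ T)
    (hbd : ∀ x ∈ {x | x ∈ Ω ∧ nu u α β 0 x < t}, |1 - u x| ≤ T ∧ ∀ i, |x i| ≤ T + 1) :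
    ∫ x in {x | x ∈ Ω ∧ nu u α β 0 x < t}, (t - nu u α β 0 x) ^ 2 * Lam u (ones n k) 1 x ≤
      T ^ 3 * volume.real (Metric.closedBall (0 : En n) (n * (T + 1))) +
        (n : ℝ) * (T ^ 3 * volume.real (Metric.closedBall (0 : En n) (n * (T + 1)))) +
        T ^ 2 * (n * (2 * (T + 2))) * volume.real (Metric.closedBall (0 : En n) (n * (T + 1))) := by
  have hβ : 0 < β := by linarith [hν.one_le_β]
  rw [hl Ω u hsc (ones n k) 1 α β 0 t hβ hK]
  set V := volume.real (Metric.closedBall (0 : En n) (n * (T + 1))) with hV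
  have hV0 : 0 ≤ V := measureReal_nonneg
  set S := {x | x ∈ Ω ∧ nu u α β 0 x < t} with hS
  set ν := nu u α β 0 with hνd
  have hR1 : |∫ x in S, (t - ν x) ^ 2 * (1 - u x)| ≤ T ^ 3 * V := by
    refine setIntegral_le_const_mul hSball (by positivity) fun x hx => ?_
    obtain ⟨s0, sT⟩ := hs x hx
    rw [abs_mul, abs_of_nonneg (sq_nonneg _)]
    have h2 : (t - ν x) ^ 2 ≤ T ^ 2 := pow_le_pow_left₀ s0 sT 2
    calc (t - ν x) ^ 2 * |1 - u x| ≤ T ^ 2 * T :=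
          mul_le_mul h2 (hbd x hx).1 (abs_nonneg _) (by positivity)
      _ = T ^ 3 := by ring
  have hR2 : |∫ x in S, (t - ν x) ^ 3| ≤ T ^ 3 * V := by
    refine setIntegral_le_const_mul hSball (by positivity) fun x hx => ?_
    obtain ⟨s0, sT⟩ := hs x hx
    rw [abs_of_nonneg (pow_nonneg s0 3)]
    exact pow_le_pow_left₀ s0 sT 3
  have hR3 : |∫ x in S, (t - ν x) ^ 2 * ∑ i, α i * (x i - ones n k i)| ≤
      T ^ 2 * (n * (2 * (T + 2))) * V := by
    refine setIntegral_le_const_mul hSball (by positivity) fun x hx => ?_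
    obtain ⟨s0, sT⟩ := hs x hx
    rw [abs_mul, abs_of_nonneg (sq_nonneg _)]
    have hx1 := (hbd x hx).2
    have h2 : (t - ν x) ^ 2 ≤ T ^ 2 := pow_le_pow_left₀ s0 sT 2
    have h3 : |∑ i, α i * (x i - ones n k i)| ≤ n * (2 * (T + 2)) := by
      refine (Finset.abs_sum_le_sum_abs _ _).trans ?_
      have : ∑ i, |α i * (x i - ones n k i)| ≤ ∑ _i : Fin n, 2 * (T + 2) := by
        refine Finset.sum_le_sum fun i _ => ?_
        rw [abs_mul]
        by_cases hi : i.val < k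
        · have e1 := hν.one_le i hi
          have e2 := hν.le i hi
          have e3 : |α i| ≤ 2 := by rw [abs_le]; constructor <;> linarith
          have e4 : |x i - ones n k i| ≤ T + 2 := by
            have e5 := abs_le.1 (hx1 i)
            rw [ones_apply_lt hi, abs_le]
            constructor <;> linarith
          exact mul_le_mul e3 e4 (abs_nonneg _) (by norm_num)
        · rw [hν.zero i (not_lt.1 hi), abs_zero, zero_mul]
          positivity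
      simpa using this
    exact mul_le_mul h2 h3 (abs_nonneg _) (by positivity)
  have hb1 : (n : ℝ) / (3 * β) ≤ n := by
    rw [div_le_iff₀ (by positivity)]
    have h0 : (0 : ℝ) ≤ n := Nat.cast_nonneg n
    nlinarith [hν.one_le_β]
  have hb2 : 1 / β ≤ 1 := by rw [div_le_one hβ]; exact hν.one_le_β
  have hb0 : 0 ≤ (n : ℝ) / (3 * β) := by positivity
  have hb3 : 0 < 1 / β := by positivity
  have e1 := (abs_le.1 hR1).2
  have e2 : (n : ℝ) / (3 * β) * (∫ x in S, (t - ν x) ^ 3) ≤ n * (T ^ 3 * V) :=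
    (mul_le_mul_of_nonneg_left (abs_le.1 hR2).2 hb0).trans
      (mul_le_mul_of_nonneg_right hb1 (by positivity))
  have e3 : -(1 / β * ∫ x in S, (t - ν x) ^ 2 * ∑ i, α i * (x i - ones n k i)) ≤
      T ^ 2 * (n * (2 * (T + 2))) * V := by
    rw [← mul_neg]
    have f1 : -(∫ x in S, (t - ν x) ^ 2 * ∑ i, α i * (x i - ones n k i)) ≤
        T ^ 2 * (n * (2 * (T + 2))) * V := by linarith [(abs_le.1 hR3).1]
    exact (mul_le_mul_of_nonneg_left f1 hb3.le).trans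
      ((mul_le_mul_of_nonneg_right hb2 (by positivity)).trans (one_mul _).le)
  linarith

/-- Uniform bound of the left side of `Stmt_theta`. -/
theorem theta_bound (hθ : Stmt_theta n) (hg : Stmt_gradImage n) (hl : Stmt_lamInt n) (k : ℕ)
    (ρ : ℝ) (hρ : 0 < ρ) : ∃ C : ℝ, 0 < C ∧ ∀ (Ω : Set (En n)) (u : En n → ℝ), AMC Ω u →
      (∀ (d : En n) (s : ℝ), (∀ i, |d i| ≤ ρ) → |s| ≤ 1 / 2 → (ones n k + d, 1 + s) ∈ epi Ω u) →
      BoxAt k Ω u (8 * ((n : ℝ) + 1) + 1) (1 / (4 * ((n : ℝ) + 1))) →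
      ∀ (α : Fin n → ℝ) (β : ℝ), NuC n k 2 α β →
      ∫ x in {x | x ∈ Ω ∧ nu u α β 0 x < 8 * ((n : ℝ) + 1)}, Real.sqrt (dt u x) *
        Lam u (ones n k) 1 x ^ (-((n : ℝ) - 2) / 2) * (8 * ((n : ℝ) + 1) - nu u α β 0 x) *
        ip u x (gr (nu u α β 0) x) (gr (nu u α β 0) x) ≤ C := by
  obtain ⟨Cg, hCg, hg⟩ := hg
  have hn0 : (0 : ℝ) ≤ n := Nat.cast_nonneg n
  set t : ℝ := 8 * ((n : ℝ) + 1) with ht
  set T : ℝ := t + 1 with hTdef
  set e : ℝ := 1 / (4 * ((n : ℝ) + 1)) with hedef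
  have he0 : 0 < e := by positivity
  have hen : 2 * e * ((n : ℝ) + 1) = 1 / 2 := by rw [hedef]; field_simp; norm_num
  have he1 : e ≤ 1 := by
    rw [hedef, div_le_one (by positivity)]; linarith
  have htpos : 8 ≤ t := by rw [ht]; linarith
  have hT0 : 0 < T := by linarith
  have hT1 : 1 ≤ T := by linarith
  set V : ℝ := volume.real (Metric.closedBall (0 : En n) (n * (T + 1))) with hV
  have hV0 : 0 ≤ V := measureReal_nonneg
  set G : ℝ := Cg / (1 / 2 * ∏ _i : Fin n, ρ) with hGdef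
  have hG0 : 0 ≤ G := by
    have : 0 < ∏ _i : Fin n, ρ := Finset.prod_pos fun _ _ => hρ
    positivity
  set C1 : ℝ := (n : ℝ) / 2 * (2 * n + 3) + (n : ℝ) * ((n : ℝ) + 2) / 12 * T with hC1
  have hC10 : 0 ≤ C1 := by positivity
  set M : ℝ := T ^ 3 * V + (n : ℝ) * (T ^ 3 * V) + T ^ 2 * (n * (2 * (T + 2))) * V with hM
  have hM0 : 0 ≤ M := by positivity
  refine ⟨C1 / 2 * (G + T ^ 2 * M) + 1, by positivity, ?_⟩
  intro Ω u h hbox hB α β hν
  have hsc : SC Ω u := h.toSC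
  have hone : (ones n k, (1 : ℝ)) ∈ epi Ω u := by
    have := hbox 0 0 (fun i => by simpa using hρ.le) (by norm_num)
    simpa using this
  have hhalf : (ones n k, (1 / 2 : ℝ)) ∈ epi Ω u := by
    have := hbox 0 (-(1 / 2)) (fun i => by simpa using hρ.le) (by norm_num [abs_of_pos])
    have h2 : (1 : ℝ) + -(1 / 2) = 1 / 2 := by norm_num
    rw [h2] at this
    simpa using this
  have hAt : (2 : ℝ) * ((n : ℝ) + 1) ≤ t := by rw [ht]; linarith
  have hTT : t + 2 * e * ((n : ℝ) + 1) < T := by rw [hen]; linarith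
  have hK := isCompact_nu h hone he0.le he1 hB hν hAt hTT
  set X := ones n k with hX
  have hLam : ∀ x ∈ Ω, 1 / 2 ≤ Lam u X 1 x := fun x hx => by
    have := Lam_ge hsc h.cv hhalf 1 hx
    linarith
  have hLam0 : ∀ x ∈ Ω, 0 < Lam u X 1 x := fun x hx => by linarith [hLam x hx]
  set S := {x | x ∈ Ω ∧ nu u α β 0 x < t} with hS
  set K := {x | x ∈ Ω ∧ nu u α β 0 x ≤ t} with hKd
  have hSK : S ⊆ K := nu_lt_subset α β 0 t
  have hKΩ : K ⊆ Ω := fun x hx => hx.1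
  have hSm : MeasurableSet S := (isOpen_nu_lt hsc α β 0 t).measurableSet
  have hSball : S ⊆ Metric.closedBall (0 : En n) (n * (T + 1)) :=
    hSK.trans (subset_closedBall_of_nu hsc h.cv hone he0.le he1 hB hν hAt hTT)
  have hint : ∀ f : En n → ℝ, ContinuousOn f Ω → IntegrableOn f S := fun f hf =>
    ((hf.mono hKΩ).integrableOn_compact hK).mono_set hSK
  -- bounds on `S`
  have hbd : ∀ x ∈ K, -(1 / 2) ≤ nu u α β 0 x ∧ |1 - u x| ≤ T ∧ ∀ i, |x i| ≤ T + 1 := by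
    intro x hx
    obtain ⟨⟨a1, a2⟩, a3, a4⟩ := box_of_nu hsc h.cv hone he0.le hB hν hAt hTT hx.1 hx.2
    refine ⟨?_, ?_, fun i => abs_le_of_nu hsc h.cv hone he0.le he1 hB hν hAt hTT hx.1 hx.2 i⟩
    · have b1 := hν.sum_ge he0.le (fun i hi => (a3 i hi).1)
      have b2 : -(2 * e) ≤ β * u x := by
        nlinarith [hν.one_le_β, hν.le_β, mul_nonneg (by linarith [hν.one_le_β] : 0 ≤ β)
          (by linarith : 0 ≤ u x + e), mul_le_mul_of_nonneg_right hν.le_β he0.le]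
      have : nu u α β 0 x = ∑ i, α i * x i + β * u x := by simp [nu]
      rw [this]; nlinarith
    · rw [abs_le]; constructor <;> linarith
  have hL := hθ Ω u h.toAMLoc X 1 α β 0 t hK (fun x hx _ => hLam0 x hx)
  refine hL.trans ?_
  -- abbreviations
  set D := dt u with hD
  set L := Lam u X 1 with hLdef
  set ν := nu u α β 0 with hνd
  have cD : ContinuousOn D Ω := continuousOn_dt hsc
  have cL : ContinuousOn L Ω := continuousOn_Lam hsc X 1
  have cν : ContinuousOn ν Ω := continuousOn_nu hsc α β 0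
  have cu : ContinuousOn u Ω := continuousOn_u hsc
  have cLr : ∀ r : ℝ, ContinuousOn (fun x => L x ^ r) Ω := fun r =>
    cL.rpow_const fun x hx => Or.inl (hLam0 x hx).ne'
  have hDpos : ∀ x ∈ Ω, 0 < D x := fun x hx => hsc.dt_pos hx
  have hs : ∀ x ∈ S, 0 ≤ t - ν x ∧ t - ν x ≤ T := by
    intro x hx
    have := (hbd x (hSK hx)).1
    exact ⟨by linarith [hx.2], by linarith⟩
  -- step 1: pointwise bound
  have hνX : ∑ i, α i * X i + β * 1 + 0 ≤ 2 * n + 2 := by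
    have := hν.sum_ones_le
    linarith [hν.le_β]
  have step1 : ∀ x ∈ S, Real.sqrt (D x) * L x ^ (-(n : ℝ) / 2) *
      ((n : ℝ) / 2 * (t - ν x) ^ 2 * ((∑ i, α i * X i + β * 1 + 0) - ν x) +
          (n : ℝ) * ((n : ℝ) + 2) / 12 * (t - ν x) ^ 3) ≤
      C1 / 2 * (D x * L x ^ (-((n : ℝ) + 1)) + T ^ 2 * ((t - ν x) ^ 2 * L x)) := by
    intro x hx
    obtain ⟨s0, sT⟩ := hs x hx
    have b1 := (hbd x (hSK hx)).1
    exact pt_bound n (hDpos x hx.1) (hLam0 x hx.1) s0 sT (by linarith)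
  have i1 : IntegrableOn (fun x => D x * L x ^ (-((n : ℝ) + 1))) S := hint _ (cD.mul (cLr _))
  have i2 : IntegrableOn (fun x => (t - ν x) ^ 2 * L x) S :=
    hint _ (((continuousOn_const.sub cν).pow 2).mul cL)
  have i3 : IntegrableOn (fun x => Real.sqrt (D x) * L x ^ (-(n : ℝ) / 2) *
      ((n : ℝ) / 2 * (t - ν x) ^ 2 * ((∑ i, α i * X i + β * 1 + 0) - ν x) +
          (n : ℝ) * ((n : ℝ) + 2) / 12 * (t - ν x) ^ 3)) S := by
    refine hint _ ?_
    refine ((cD.sqrt).mul (cLr _)).mul ?_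
    refine ContinuousOn.add ?_ ?_
    · exact (continuousOn_const.mul ((continuousOn_const.sub cν).pow 2)).mul
        (continuousOn_const.sub cν)
    · exact continuousOn_const.mul ((continuousOn_const.sub cν).pow 3)
  have step2 : ∫ x in S, Real.sqrt (D x) * L x ^ (-(n : ℝ) / 2) *
      ((n : ℝ) / 2 * (t - ν x) ^ 2 * ((∑ i, α i * X i + β * 1 + 0) - ν x) +
          (n : ℝ) * ((n : ℝ) + 2) / 12 * (t - ν x) ^ 3) ≤
      C1 / 2 * ((∫ x in S, D x * L x ^ (-((n : ℝ) + 1))) +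
        T ^ 2 * ∫ x in S, (t - ν x) ^ 2 * L x) := by
    have := setIntegral_mono_on i3 ((i1.add (i2.const_mul (T ^ 2))).const_mul (C1 / 2)) hSm
      (fun x hx => step1 x hx)
    refine this.trans (le_of_eq ?_)
    rw [integral_const_mul]
    congr 1
    simp only [Pi.add_apply]
    rw [integral_add i1 (i2.const_mul (T ^ 2)), integral_const_mul]
  refine step2.trans ?_
  -- step 3: the gradient image
  have step3 : ∫ x in S, D x * L x ^ (-((n : ℝ) + 1)) ≤ G := by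
    refine integral_dLam_le hG0 hSm (fun x hx => ?_) i1 ?_
    · exact mul_nonneg (hDpos x hx.1).le (Real.rpow_nonneg (hLam0 x hx.1).le _)
    · exact hg Ω u hsc h.cv X 1 (1 / 2) (fun _ => ρ) (by norm_num) (fun _ => hρ) hbox S hSm
        (fun x hx => hx.1)
  -- step 4: the integral of Lam
  have step4 : ∫ x in S, (t - ν x) ^ 2 * L x ≤ M :=
    lamInt_bound hl hsc hT0.le hν hK hSball hs (fun x hx => (hbd x (hSK hx)).2)
  have : T ^ 2 * (∫ x in S, (t - ν x) ^ 2 * L x) ≤ T ^ 2 * M :=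
    mul_le_mul_of_nonneg_left step4 (by positivity)
  have h5 : C1 / 2 * ((∫ x in S, D x * L x ^ (-((n : ℝ) + 1))) +
        T ^ 2 * ∫ x in S, (t - ν x) ^ 2 * L x) ≤ C1 / 2 * (G + T ^ 2 * M) :=
    mul_le_mul_of_nonneg_left (by linarith) (by positivity)
  linarith

end Vale.Agent.P252.H693
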